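import Vale.Agent.Kap.Main
import Vale.Agent.Kap.Torsion

theorem Vale.Agent.Results.P201.ZeroDivisors.result :
    ∃ (G : Type) (_ : Group G), (∀ g : G, IsOfFinOrder g → g = 1) ∧
      ∃ α β : MonoidAlgebra (ZMod 2) G, α ≠ 0 ∧ β ≠ 0 ∧ α * β = 0 := by
  obtain ⟨V, E, S, _, _, Γ, pos, C, hp, hf, a, b, c, h1, h2, h3⟩ := Vale.Agent.Kap.exists_graph
  refine ⟨Γ.Grp, inferInstance, Vale.Agent.Kap.torsionFree_of_fillBound hp hf, a, c, ?_, h3, h2⟩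
  rintro rfl
  rw [zero_mul] at h1
  exact zero_ne_one h1
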